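import Mathlib

/-!
# P207, all dimensions: Jacobi's formula, trace and determinant without a basis

* `hasDerivAt_matDet`: Jacobi's formula for matrices, `(det N)' = tr (adj N * N')`;
* `hasDerivAt_det_of`: for `A' = A V - W A`, `(det A)' = (tr V - tr W) det A`;
* `continuous_tr`, `continuous_det`;
* `det_pos_of_inner`: `0 < ⟪A v, v⟫` for all `v ≠ 0` implies `0 < det A`.
-/

open Matrix Filter Set
open scoped Topology

noncomputable section

namespace Vale.Agent.P207.H147.DetD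

section Mat

variable {κ : Type*} [Fintype κ] [DecidableEq κ]

theorem sum_updateCol_eq (X Y : Matrix κ κ ℝ) :
    ∑ σ : Equiv.Perm κ, (Equiv.Perm.sign σ : ℤ) •
      ∑ i, (∏ j ∈ Finset.univ.erase i, X (σ j) j) * Y (σ i) i =
      (X.adjugate * Y).trace := by
  simp only [Finset.smul_sum]
  rw [Finset.sum_comm]
  rw [Matrix.trace]
  refine Finset.sum_congr rfl fun i _ => ?_
  have h1 : (X.adjugate * Y).diag i = (X.updateCol i (fun j => Y j i)).det := by
    rw [← Matrix.cramer_apply, Matrix.cramer_eq_adjugate_mulVec]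
    simp only [diag, Matrix.mul_apply, mulVec, dotProduct]
  rw [h1, Matrix.det_apply]
  refine Finset.sum_congr rfl fun σ _ => ?_
  have : ∏ k, (X.updateCol i (fun j => Y j i)) (σ k) k =
      (∏ j ∈ Finset.univ.erase i, X (σ j) j) * Y (σ i) i := by
    rw [← Finset.prod_erase_mul Finset.univ _ (Finset.mem_univ i)]
    congr 1
    · refine Finset.prod_congr rfl fun j hj => ?_
      rw [Matrix.updateCol_ne (Finset.ne_of_mem_erase hj)]
    · simp
  rw [this]
  rfl

/-- Jacobi's formula. -/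
theorem hasDerivAt_matDet {N : ℝ → Matrix κ κ ℝ} {N' : Matrix κ κ ℝ} {t : ℝ}
    (hN : ∀ i j, HasDerivAt (fun s => N s i j) (N' i j) t) :
    HasDerivAt (fun t => (N t).det) ((N t).adjugate * N').trace t := by
  rw [← sum_updateCol_eq]
  have h1 : ∀ t, (N t).det =
      ∑ σ : Equiv.Perm κ, (Equiv.Perm.sign σ : ℤ) • ∏ i, N t (σ i) i := by
    intro t
    rw [Matrix.det_apply]
    rfl
  simp only [h1]
  refine HasDerivAt.fun_sum (fun σ _ => ?_)
  have h2 := HasDerivAt.fun_finsetProd (u := Finset.univ) (x := t)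
    (f := fun i t => N t (σ i) i) (f' := fun i => N' (σ i) i) (fun i _ => hN (σ i) i)
  simp only [smul_eq_mul] at h2
  exact h2.const_smul ((Equiv.Perm.sign σ : ℤ))

/-- Jacobi's formula for `N' = N V - W N` -/
theorem hasDerivAt_matDet_of {N : ℝ → Matrix κ κ ℝ} {V W : Matrix κ κ ℝ} {t : ℝ}
    (hN : ∀ i j, HasDerivAt (fun s => N s i j) ((N t * V - W * N t) i j) t) :
    HasDerivAt (fun t => (N t).det) ((V.trace - W.trace) * (N t).det) t := by
  have h1 := hasDerivAt_matDet hN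
  have h2 : ((N t).adjugate * (N t * V - W * N t)).trace = (V.trace - W.trace) * (N t).det := by
    rw [mul_sub, Matrix.trace_sub, ← mul_assoc, Matrix.adjugate_mul, Matrix.smul_mul,
      Matrix.one_mul, Matrix.trace_smul, ← mul_assoc, Matrix.trace_mul_comm, ← mul_assoc,
      Matrix.mul_adjugate, Matrix.smul_mul, Matrix.one_mul, Matrix.trace_smul]
    simp only [smul_eq_mul]
    ring
  rwa [h2] at h1

end Mat

section Gen

variable {E : Type*} [NormedAddCommGroup E] [NormedSpace ℝ E] [FiniteDimensional ℝ E]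

omit [FiniteDimensional ℝ E] in
/-- the trace -/
def tr (A : E →L[ℝ] E) : ℝ := LinearMap.trace ℝ E (A : E →ₗ[ℝ] E)

omit [FiniteDimensional ℝ E] in
theorem tr_add (A C : E →L[ℝ] E) : tr (A + C) = tr A + tr C := by
  simp [tr]

omit [FiniteDimensional ℝ E] in
theorem tr_neg (A : E →L[ℝ] E) : tr (-A) = -tr A := by
  simp [tr]

omit [FiniteDimensional ℝ E] in
theorem tr_sub (A C : E →L[ℝ] E) : tr (A - C) = tr A - tr C := by
  simp [tr]

omit [FiniteDimensional ℝ E] in
theorem tr_smul (c : ℝ) (A : E →L[ℝ] E) : tr (c • A) = c * tr A := by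
  simp [tr]

omit [FiniteDimensional ℝ E] in
@[simp] theorem tr_zero : tr (0 : E →L[ℝ] E) = 0 := by
  simp [tr]

theorem tr_id : tr (ContinuousLinearMap.id ℝ E) = Module.finrank ℝ E := by
  have h : ((ContinuousLinearMap.id ℝ E : E →L[ℝ] E) : E →ₗ[ℝ] E) = LinearMap.id := rfl
  rw [tr, h, LinearMap.trace_id]

theorem tr_comp_comm (A C : E →L[ℝ] E) : tr (A ∘L C) = tr (C ∘L A) := by
  have h1 : ((A ∘L C : E →L[ℝ] E) : E →ₗ[ℝ] E) = (A : E →ₗ[ℝ] E) * (C : E →ₗ[ℝ] E) := rfl
  have h2 : ((C ∘L A : E →L[ℝ] E) : E →ₗ[ℝ] E) = (C : E →ₗ[ℝ] E) * (A : E →ₗ[ℝ] E) := rfl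
  rw [tr, tr, h1, h2, LinearMap.trace_mul_comm]

/-- the trace as a linear map -/
def trL : (E →L[ℝ] E) →ₗ[ℝ] ℝ where
  toFun := tr
  map_add' := tr_add
  map_smul' c A := by simp [tr_smul]

theorem continuous_tr : Continuous (tr : (E →L[ℝ] E) → ℝ) :=
  (trL (E := E)).continuous_of_finiteDimensional

theorem continuous_det : Continuous fun A : E →L[ℝ] E => A.det :=
  ContinuousLinearMap.continuous_det

/-- the matrix entry as a continuous linear map -/
theorem hasDerivAt_entry {ι : Type*} [Fintype ι] [DecidableEq ι] (b : Module.Basis ι ℝ E)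
    {A : ℝ → E →L[ℝ] E} {A' : E →L[ℝ] E} {t : ℝ} (h : HasDerivAt A A' t) (i j : ι) :
    HasDerivAt (fun s => LinearMap.toMatrix b b (A s : E →ₗ[ℝ] E) i j)
      (LinearMap.toMatrix b b (A' : E →ₗ[ℝ] E) i j) t := by
  have h1 : HasDerivAt (fun s => A s (b j)) (A' (b j)) t := by
    have h2 := h.clm_apply (hasDerivAt_const t (b j))
    simpa using h2
  let c : E →L[ℝ] ℝ := LinearMap.toContinuousLinearMap (b.coord i)
  have h3 := c.hasFDerivAt.comp_hasDerivAt t h1
  have h4 : ∀ B : E →L[ℝ] E, LinearMap.toMatrix b b (B : E →ₗ[ℝ] E) i j = c (B (b j)) := by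
    intro B
    rw [LinearMap.toMatrix_apply]
    rfl
  simp only [h4]
  exact h3

/-- Jacobi's formula for `A' = A V - W A` -/
theorem hasDerivAt_det_of {A : ℝ → E →L[ℝ] E} {V W : E →L[ℝ] E} {t : ℝ}
    (h : HasDerivAt A (A t ∘L V - W ∘L A t) t) :
    HasDerivAt (fun s => (A s).det) ((tr V - tr W) * (A t).det) t := by
  classical
  let b := Module.finBasis ℝ E
  have h1 : ∀ B : E →L[ℝ] E, B.det = (LinearMap.toMatrix b b (B : E →ₗ[ℝ] E)).det := by
    intro B
    rw [ContinuousLinearMap.det, LinearMap.det_toMatrix]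
  have h2 : ∀ B : E →L[ℝ] E, tr B = (LinearMap.toMatrix b b (B : E →ₗ[ℝ] E)).trace := by
    intro B
    rw [tr, LinearMap.trace_eq_matrix_trace ℝ b]
  simp only [h1, h2]
  refine hasDerivAt_matDet_of fun i j => ?_
  have h3 := hasDerivAt_entry b h i j
  have h4 : ((A t ∘L V - W ∘L A t : E →L[ℝ] E) : E →ₗ[ℝ] E)
      = (A t : E →ₗ[ℝ] E) ∘ₗ (V : E →ₗ[ℝ] E) - (W : E →ₗ[ℝ] E) ∘ₗ (A t : E →ₗ[ℝ] E) := rfl
  rw [h4, map_sub, LinearMap.toMatrix_comp b b b, LinearMap.toMatrix_comp b b b] at h3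
  exact h3

/-- Jacobi's formula for `A' = A V` -/
theorem hasDerivAt_det_right {A : ℝ → E →L[ℝ] E} {V : E →L[ℝ] E} {t : ℝ}
    (h : HasDerivAt A (A t ∘L V) t) :
    HasDerivAt (fun s => (A s).det) (tr V * (A t).det) t := by
  have h1 := hasDerivAt_det_of (A := A) (V := V) (W := 0) (t := t)
    (by simpa using h)
  simpa using h1

/-- Jacobi's formula for `A' = W A` -/
theorem hasDerivAt_det_left {A : ℝ → E →L[ℝ] E} {W : E →L[ℝ] E} {t : ℝ}
    (h : HasDerivAt A (W ∘L A t) t) :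
    HasDerivAt (fun s => (A s).det) (tr W * (A t).det) t := by
  have h1 := hasDerivAt_det_of (A := A) (V := 0) (W := -W) (t := t)
    (by
      have h2 : A t ∘L (0 : E →L[ℝ] E) - (-W) ∘L A t = W ∘L A t := by
        ext v
        simp
      rwa [h2])
  simpa [tr_neg] using h1

/-- Jacobi's formula, invertible case: `(det A)' = tr (A⁻¹ A') det A` -/
theorem hasDerivAt_det_inv {A : ℝ → E →L[ℝ] E} {A' : E →L[ℝ] E} {t : ℝ} (h : HasDerivAt A A' t)
    (e : E ≃L[ℝ] E) (he : (e : E →L[ℝ] E) = A t) :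
    HasDerivAt (fun s => (A s).det) (tr ((e.symm : E →L[ℝ] E) ∘L A') * (A t).det) t := by
  refine hasDerivAt_det_right ?_
  have h1 : A t ∘L ((e.symm : E →L[ℝ] E) ∘L A') = A' := by
    rw [← he]
    ext v
    simp
  rwa [h1]

end Gen

section Inner

variable {E : Type*} [NormedAddCommGroup E] [InnerProductSpace ℝ E] [FiniteDimensional ℝ E]

/-- an operator with `0 < ⟪A v, v⟫` for all `v ≠ 0` has positive determinant -/
theorem det_pos_of_inner (A : E →L[ℝ] E) (hA : ∀ v : E, v ≠ 0 → 0 < inner ℝ (A v) v) :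
    0 < A.det := by
  have hne : ∀ s ∈ Icc (0 : ℝ) 1,
      ((1 - s) • ContinuousLinearMap.id ℝ E + s • A : E →L[ℝ] E).det ≠ 0 := by
    intro s hs h0
    have h1 : ¬ Function.Injective
        ((1 - s) • ContinuousLinearMap.id ℝ E + s • A : E →L[ℝ] E) := by
      intro hi
      have h2 : LinearMap.ker
          (((1 - s) • ContinuousLinearMap.id ℝ E + s • A : E →L[ℝ] E) : E →ₗ[ℝ] E) = ⊥ :=
        LinearMap.ker_eq_bot.mpr hi
      exact (LinearMap.bot_lt_ker_of_det_eq_zero h0).ne' h2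
    apply h1
    refine (injective_iff_map_eq_zero _).2 fun v hv => ?_
    by_contra hv0
    have h3 : inner ℝ (((1 - s) • ContinuousLinearMap.id ℝ E + s • A : E →L[ℝ] E) v) v
        = (1 - s) * inner ℝ v v + s * inner ℝ (A v) v := by
      simp only [ContinuousLinearMap.add_apply, ContinuousLinearMap.smul_apply,
        ContinuousLinearMap.coe_id', id_eq, inner_add_left, inner_smul_left, conj_trivial]
    rw [hv, inner_zero_left] at h3
    have h4 : 0 < inner ℝ v v := by
      rw [real_inner_self_eq_norm_sq]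
      exact pow_pos (norm_pos_iff.2 hv0) 2
    have h5 := hA v hv0
    rcases eq_or_lt_of_le hs.1 with h6 | h6
    · rw [← h6] at h3
      linarith
    · have h7 : 0 ≤ (1 - s) * inner ℝ v v := mul_nonneg (by linarith [hs.2]) h4.le
      have h8 : 0 < s * inner ℝ (A v) v := mul_pos h6 h5
      linarith
  have hc : ContinuousOn (fun s : ℝ =>
      ((1 - s) • ContinuousLinearMap.id ℝ E + s • A : E →L[ℝ] E).det) (Icc 0 1) := by
    apply Continuous.continuousOn
    exact ContinuousLinearMap.continuous_det.comp (by fun_prop)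
  by_contra hneg
  have h0 : ((1 - (0 : ℝ)) • ContinuousLinearMap.id ℝ E + (0 : ℝ) • A : E →L[ℝ] E).det = 1 := by
    simp [ContinuousLinearMap.det]
  have h1 : ((1 - (1 : ℝ)) • ContinuousLinearMap.id ℝ E + (1 : ℝ) • A : E →L[ℝ] E).det = A.det := by
    simp
  have h2 := intermediate_value_Icc' (zero_le_one (α := ℝ)) hc
  have h3 : (0 : ℝ) ∈ Icc
      (((1 - (1 : ℝ)) • ContinuousLinearMap.id ℝ E + (1 : ℝ) • A : E →L[ℝ] E).det)
      (((1 - (0 : ℝ)) • ContinuousLinearMap.id ℝ E + (0 : ℝ) • A : E →L[ℝ] E).det) := by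
    rw [h0, h1]
    exact ⟨not_lt.1 hneg, zero_le_one⟩
  obtain ⟨s, hs, hs0⟩ := h2 h3
  exact hne s hs hs0

end Inner

end Vale.Agent.P207.H147.DetD
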