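import Vale.Agent.P207.H340.SInvG
import Vale.Agent.P207.H376.TY
import Vale.Agent.P207.H80.Orb

/-!
# P207, all dimensions, `b < 2 a`: LEMMA R

`S` is a subspace of a representation `W` of `GL(E)` (`Act E W`: the forms), `D n ∈ GL(E)` preserve
`S`, `g ∈ GL(E)`, and `pull (g ∘ D n) S` is `δ n`-close to `S`. If
`‖D n‖ ‖(D n)⁻¹‖ δ n → 0`, then `pull g S ⊆ S`: the defect is given by an element of `gl(E)`, whose
distortion is only `‖D n‖ ‖(D n)⁻¹‖`, up to an error of the second order.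

The input is `exists_eqs` (H80): the orbit of the inclusion `S → W` under `GL(E) × GL(S)` satisfies
polynomial equations whose common kernel is the tangent space of the orbit.
-/

open Set Filter Topology Metric
open scoped ContDiff

set_option maxSynthPendingDepth 3

noncomputable section

namespace Vale.Agent.P207.H147.LemR

open Vale.Agent.P207.H340 Vale.Agent.P207.H80.Orb

/-! ### polynomial functions -/

section Pol

theorem pol_prod {F ι : Type} [NormedAddCommGroup F] [NormedSpace ℝ F] (s : Finset ι)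
    {f : ι → F → ℝ} (hf : ∀ i ∈ s, f i ∈ Pol F) : (fun x => ∏ i ∈ s, f i x) ∈ Pol F := by
  have h := (Pol F).prod_mem hf
  have h2 : (∏ i ∈ s, f i) = fun x => ∏ i ∈ s, f i x := by
    funext x
    simp
  rwa [h2] at h

variable {G C : Type} [NormedAddCommGroup G] [NormedSpace ℝ G] [FiniteDimensional ℝ G]
  [NormedAddCommGroup C] [NormedSpace ℝ C] [FiniteDimensional ℝ C]

theorem lin_sum {n : ℕ} (b : Module.Basis (Fin n) ℝ G) (f : G →ₗ[ℝ] ℝ) (x : G) :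
    f x = ∑ i, b.repr x i * f (b i) := by
  conv_lhs => rw [← b.sum_repr x]
  rw [map_sum]
  exact Finset.sum_congr rfl fun i _ => by rw [map_smul, smul_eq_mul]

/-- a trilinear form on the diagonal -/
theorem pol_tri (T : G →ₗ[ℝ] G →ₗ[ℝ] C →ₗ[ℝ] ℝ) :
    (fun p : G × C => T p.1 p.1 p.2) ∈ Pol (G × C) := by
  set b := Module.finBasis ℝ G with hb
  set c := Module.finBasis ℝ C with hc
  have h1 : (fun p : G × C => T p.1 p.1 p.2) = fun p : G × C => ∑ i, (b.repr p.1 i *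
      ∑ j, (b.repr p.1 j * ∑ k, (c.repr p.2 k * T (b i) (b j) (c k)))) := by
    funext p
    have e1 := lin_sum b ((LinearMap.applyₗ p.2).comp ((LinearMap.applyₗ p.1).comp T)) p.1
    simp only [LinearMap.comp_apply, LinearMap.applyₗ_apply_apply] at e1
    rw [e1]
    refine Finset.sum_congr rfl fun i _ => ?_
    have e2 := lin_sum b ((LinearMap.applyₗ p.2).comp (T (b i))) p.1
    simp only [LinearMap.comp_apply, LinearMap.applyₗ_apply_apply] at e2
    rw [e2]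
    congr 1
    refine Finset.sum_congr rfl fun j _ => ?_
    rw [lin_sum c (T (b i) (b j)) p.2]
  rw [h1]
  have hbi : ∀ i, (fun p : G × C => b.repr p.1 i) ∈ Pol (G × C) := fun i =>
    Pol.lin ((LinearMap.toContinuousLinearMap (b.coord i)).comp (ContinuousLinearMap.fst ℝ G C))
  have hck : ∀ k, (fun p : G × C => c.repr p.2 k) ∈ Pol (G × C) := fun k =>
    Pol.lin ((LinearMap.toContinuousLinearMap (c.coord k)).comp (ContinuousLinearMap.snd ℝ G C))
  exact Pol.sum _ fun i _ => Pol.mul (hbi i) (Pol.sum _ fun j _ => Pol.mul (hbi j)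
    (Pol.sum _ fun k _ => Pol.mul (hck k) (Pol.const _)))

/-- the determinant -/
theorem pol_det : (fun g : G →L[ℝ] G => LinearMap.det (g : G →ₗ[ℝ] G)) ∈ Pol (G →L[ℝ] G) := by
  classical
  set b := Module.finBasis ℝ G with hb
  have h1 : (fun g : G →L[ℝ] G => LinearMap.det (g : G →ₗ[ℝ] G)) = fun g =>
      ∑ σ : Equiv.Perm (Fin (Module.finrank ℝ G)), ((Equiv.Perm.sign σ : ℤ) : ℝ) *
        ∏ i, b.repr (g (b i)) (σ i) := by
    funext g
    rw [← LinearMap.det_toMatrix b, Matrix.det_apply']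
    simp only [LinearMap.toMatrix_apply, ContinuousLinearMap.coe_coe]
  rw [h1]
  refine Pol.sum _ fun σ _ => Pol.mul (Pol.const _) (pol_prod _ fun i _ => ?_)
  exact Pol.lin ((LinearMap.toContinuousLinearMap (b.coord (σ i))).comp
    (ContinuousLinearMap.apply ℝ G (b i)))

end Pol

/-! ### the action on the maps `S → W` -/

section Act

variable {E W : Type} [NormedAddCommGroup E] [NormedSpace ℝ E] [FiniteDimensional ℝ E]
  [NormedAddCommGroup W] [NormedSpace ℝ W] [FiniteDimensional ℝ W] (A : Act E W)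

/-- the bilinear map of the action -/
def B2 : (E →L[ℝ] E) →L[ℝ] (E →L[ℝ] E) →L[ℝ] W →L[ℝ] W :=
  LinearMap.toContinuousLinearMap
    { toFun := fun g => LinearMap.toContinuousLinearMap
        { toFun := fun h => LinearMap.toContinuousLinearMap
            { toFun := fun s => A.Q s g h
              map_add' := fun s s' => A.add s s' g h
              map_smul' := fun c s => A.smul c s g h }
          map_add' := fun h h' => by
            ext s
            exact (A.Q s g).map_add h h'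
          map_smul' := fun c h => by
            ext s
            exact (A.Q s g).map_smul c h }
      map_add' := fun g g' => by
        ext h s
        change A.Q s (g + g') h = A.Q s g h + A.Q s g' h
        rw [map_add]
        rfl
      map_smul' := fun c g => by
        ext h s
        change A.Q s (c • g) h = c • A.Q s g h
        rw [map_smul]
        rfl }

theorem B2_apply (g h : E →L[ℝ] E) (s : W) : B2 A g h s = A.Q s g h := rfl

theorem B2_self (g : E →L[ℝ] E) : B2 A g g = A.pull g := by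
  ext s
  rfl

/-- the derivative of the action -/
def dp (Y : E →L[ℝ] E) (s : W) : W :=
  A.Q s Y (ContinuousLinearMap.id ℝ E) + A.Q s (ContinuousLinearMap.id ℝ E) Y

theorem norm_dp (Y : E →L[ℝ] E) (s : W) : ‖dp A Y s‖ ≤ 2 * ‖Y‖ * ‖s‖ := by
  have h1 := A.le s Y (ContinuousLinearMap.id ℝ E)
  have h2 := A.le s (ContinuousLinearMap.id ℝ E) Y
  have h3 : ‖ContinuousLinearMap.id ℝ E‖ ≤ 1 := ContinuousLinearMap.norm_id_le
  have h4 : ‖s‖ * ‖Y‖ * ‖ContinuousLinearMap.id ℝ E‖ ≤ ‖s‖ * ‖Y‖ * 1 := by gcongr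
  have h5 : ‖s‖ * ‖ContinuousLinearMap.id ℝ E‖ * ‖Y‖ ≤ ‖s‖ * 1 * ‖Y‖ := by gcongr
  calc ‖dp A Y s‖ ≤ ‖A.Q s Y (ContinuousLinearMap.id ℝ E)‖ +
        ‖A.Q s (ContinuousLinearMap.id ℝ E) Y‖ := norm_add_le _ _
    _ ≤ ‖s‖ * ‖Y‖ * 1 + ‖s‖ * 1 * ‖Y‖ := add_le_add (h1.trans h4) (h2.trans h5)
    _ = 2 * ‖Y‖ * ‖s‖ := by ring

theorem dp_add_right (Y : E →L[ℝ] E) (s s' : W) : dp A Y (s + s') = dp A Y s + dp A Y s' := by
  simp only [dp, A.add]
  abel

theorem pull_sub_pull (Y : E →L[ℝ] E) (s : W) :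
    A.pull (ContinuousLinearMap.id ℝ E + Y) s - A.pull (ContinuousLinearMap.id ℝ E - Y) s =
      (2 : ℝ) • dp A Y s := by
  simp only [Act.pull_apply, dp, map_add, map_sub, add_apply, sub_apply]
  module

/-- the derivative of the action is equivariant -/
theorem dp_conj (D : E ≃L[ℝ] E) (Y : E →L[ℝ] E) (z : W) :
    A.pull (D.symm : E →L[ℝ] E) (dp A Y (A.pull (D : E →L[ℝ] E) z)) =
      dp A ((D : E →L[ℝ] E) ∘L Y ∘L (D.symm : E →L[ℝ] E)) z := by
  have h1 : ∀ Z : E →L[ℝ] E, A.pull (D.symm : E →L[ℝ] E) (A.pull Z (A.pull (D : E →L[ℝ] E) z)) =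
      A.pull ((D : E →L[ℝ] E) ∘L Z ∘L (D.symm : E →L[ℝ] E)) z := by
    intro Z
    rw [← A.pull_comp, ← A.pull_comp]
  have h2 : ∀ Z : E →L[ℝ] E, (D : E →L[ℝ] E) ∘L (ContinuousLinearMap.id ℝ E + Z) ∘L
      (D.symm : E →L[ℝ] E) = ContinuousLinearMap.id ℝ E +
        (D : E →L[ℝ] E) ∘L Z ∘L (D.symm : E →L[ℝ] E) := by
    intro Z
    ext x
    simp
  have h3 : (D : E →L[ℝ] E) ∘L (ContinuousLinearMap.id ℝ E - Y) ∘L
      (D.symm : E →L[ℝ] E) = ContinuousLinearMap.id ℝ E -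
        (D : E →L[ℝ] E) ∘L Y ∘L (D.symm : E →L[ℝ] E) := by
    ext x
    simp
  have h4 := congrArg (A.pull (D.symm : E →L[ℝ] E)) (pull_sub_pull A Y (A.pull (D : E →L[ℝ] E) z))
  rw [map_sub, h1, h1, h2, h3, pull_sub_pull, map_smul] at h4
  exact (smul_right_injective W (two_ne_zero' ℝ) h4).symm

variable (S : Submodule ℝ W)

/-- the action of `End E × End S` on the maps `S → W` -/
def act (p : (E →L[ℝ] E) × (S →L[ℝ] S)) : (S →L[ℝ] W) →L[ℝ] (S →L[ℝ] W) :=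
  LinearMap.toContinuousLinearMap
    { toFun := fun θ => A.pull p.1 ∘L θ ∘L p.2
      map_add' := fun θ θ' => by
        ext s
        simp
      map_smul' := fun c θ => by
        ext s
        simp }

theorem act_apply (p : (E →L[ℝ] E) × (S →L[ℝ] S)) (θ : S →L[ℝ] W) :
    act A S p θ = A.pull p.1 ∘L θ ∘L p.2 := rfl

/-- the infinitesimal action, for one element -/
def rho1 (p : (E →L[ℝ] E) × (S →L[ℝ] S)) : (S →L[ℝ] W) →L[ℝ] (S →L[ℝ] W) :=
  LinearMap.toContinuousLinearMap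
    { toFun := fun θ => (B2 A p.1 (ContinuousLinearMap.id ℝ E) +
        B2 A (ContinuousLinearMap.id ℝ E) p.1) ∘L θ + θ ∘L p.2
      map_add' := fun θ θ' => by
        ext s
        simp only [ContinuousLinearMap.comp_add, ContinuousLinearMap.add_comp, add_apply,
          ContinuousLinearMap.comp_apply]
        abel
      map_smul' := fun c θ => by
        ext s
        simp only [add_apply, ContinuousLinearMap.comp_apply, smul_apply, map_smul,
          RingHom.id_apply, smul_add] }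

theorem rho1_apply (p : (E →L[ℝ] E) × (S →L[ℝ] S)) (θ : S →L[ℝ] W) (s : S) :
    rho1 A S p θ s = dp A p.1 (θ s) + θ (p.2 s) := rfl

/-- the infinitesimal action -/
def rho : ((E →L[ℝ] E) × (S →L[ℝ] S)) →L[ℝ] (S →L[ℝ] W) →L[ℝ] (S →L[ℝ] W) :=
  LinearMap.toContinuousLinearMap
    { toFun := fun p => rho1 A S p
      map_add' := fun p p' => by
        ext θ s
        simp only [add_apply, rho1_apply, Prod.fst_add, Prod.snd_add, map_add, dp]
        abel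
      map_smul' := fun c p => by
        ext θ s
        simp only [smul_apply, rho1_apply, Prod.smul_fst, Prod.smul_snd, map_smul, dp,
          RingHom.id_apply, smul_add] }

theorem rho_apply (p : (E →L[ℝ] E) × (S →L[ℝ] S)) (θ : S →L[ℝ] W) (s : S) :
    rho A S p θ s = dp A p.1 (θ s) + θ (p.2 s) := rfl

/-- the action is polynomial -/
theorem pol_act (l : (S →L[ℝ] W) →L[ℝ] ℝ) (v : S →L[ℝ] W) :
    (fun p => l (act A S p v)) ∈ Pol ((E →L[ℝ] E) × (S →L[ℝ] S)) := by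
  set T : (E →L[ℝ] E) →ₗ[ℝ] (E →L[ℝ] E) →ₗ[ℝ] (S →L[ℝ] S) →ₗ[ℝ] ℝ :=
    LinearMap.mk₂ ℝ (fun g h =>
      { toFun := fun c => l (B2 A g h ∘L v ∘L c)
        map_add' := fun c c' => by
          rw [← map_add]
          congr 1
          ext s
          simp
        map_smul' := fun r c => by
          rw [RingHom.id_apply, ← map_smul]
          congr 1
          ext s
          simp })
      (fun g g' h => by
        ext c
        simp only [LinearMap.coe_mk, AddHom.coe_mk, LinearMap.add_apply]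
        rw [← map_add]
        congr 1
        ext s
        simp)
      (fun r g h => by
        ext c
        simp only [LinearMap.coe_mk, AddHom.coe_mk, LinearMap.smul_apply]
        rw [← map_smul]
        congr 1
        ext s
        simp)
      (fun g h h' => by
        ext c
        simp only [LinearMap.coe_mk, AddHom.coe_mk, LinearMap.add_apply]
        rw [← map_add]
        congr 1
        ext s
        simp)
      (fun r g h => by
        ext c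
        simp only [LinearMap.coe_mk, AddHom.coe_mk, LinearMap.smul_apply]
        rw [← map_smul]
        congr 1
        ext s
        simp) with hT
  have h := pol_tri (G := E →L[ℝ] E) (C := S →L[ℝ] S) T
  have h2 : (fun p => l (act A S p v)) = fun p : (E →L[ℝ] E) × (S →L[ℝ] S) =>
      T p.1 p.1 p.2 := by
    funext p
    rfl
  rw [h2]
  exact h

/-- the unit of `End E × End S` -/
def e1 : (E →L[ℝ] E) × (S →L[ℝ] S) :=
  (ContinuousLinearMap.id ℝ E, ContinuousLinearMap.id ℝ S)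

theorem act_e1 (θ : S →L[ℝ] W) : act A S (e1 S) θ = θ := by
  ext s
  change A.pull (ContinuousLinearMap.id ℝ E) (θ s) = θ s
  rw [A.pull_id]

/-- the action near the unit -/
theorem act_line (X : (E →L[ℝ] E) × (S →L[ℝ] S)) (θ : S →L[ℝ] W) (t : ℝ) :
    act A S (e1 S + t • X) θ = θ + t • rho A S X θ +
      t ^ 2 • (B2 A X.1 X.1 ∘L θ + (B2 A X.1 (ContinuousLinearMap.id ℝ E) +
        B2 A (ContinuousLinearMap.id ℝ E) X.1) ∘L θ ∘L X.2) +
      t ^ 3 • (B2 A X.1 X.1 ∘L θ ∘L X.2) := by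
  ext s
  have h1 : act A S (e1 S + t • X) θ s =
      A.Q (θ (s + t • X.2 s)) (ContinuousLinearMap.id ℝ E + t • X.1)
        (ContinuousLinearMap.id ℝ E + t • X.1) := rfl
  rw [h1]
  simp only [add_apply, smul_apply, rho_apply, dp, ContinuousLinearMap.comp_apply, B2_apply,
    map_add, map_smul, A.add, A.smul, A.one]
  module

theorem hasDerivAt_line (X : (E →L[ℝ] E) × (S →L[ℝ] S)) :
    HasDerivAt (fun t : ℝ => e1 S + t • X) X 0 := by
  have h2 := ((hasDerivAt_id (0 : ℝ)).smul_const X).const_add (e1 S)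
  simpa using h2

theorem hasDerivAt_act (X : (E →L[ℝ] E) × (S →L[ℝ] S)) (θ : S →L[ℝ] W) :
    HasDerivAt (fun t : ℝ => act A S (e1 S + t • X) θ) (rho A S X θ) 0 := by
  have h6 : (fun t : ℝ => act A S (e1 S + t • X) θ) = fun t : ℝ => θ + t • rho A S X θ +
      t ^ 2 • (B2 A X.1 X.1 ∘L θ + (B2 A X.1 (ContinuousLinearMap.id ℝ E) +
        B2 A (ContinuousLinearMap.id ℝ E) X.1) ∘L θ ∘L X.2) +
      t ^ 3 • (B2 A X.1 X.1 ∘L θ ∘L X.2) := funext fun t => act_line A S X θ t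
  rw [h6]
  have h7 := ((((hasDerivAt_id (0 : ℝ)).smul_const (rho A S X θ)).const_add θ).add
    ((hasDerivAt_pow 2 (0 : ℝ)).smul_const (B2 A X.1 X.1 ∘L θ +
      (B2 A X.1 (ContinuousLinearMap.id ℝ E) +
        B2 A (ContinuousLinearMap.id ℝ E) X.1) ∘L θ ∘L X.2))).add
    ((hasDerivAt_pow 3 (0 : ℝ)).smul_const (B2 A X.1 X.1 ∘L θ ∘L X.2))
  refine h7.congr_deriv ?_
  simp

/-- the derivative of the orbit map at the unit -/
theorem fderiv_act (X : (E →L[ℝ] E) × (S →L[ℝ] S)) (θ : S →L[ℝ] W) :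
    ∃ ξ, rho A S ξ θ = fderiv ℝ (fun p => act A S p θ) (e1 S) X := by
  by_cases hd : DifferentiableAt ℝ (fun p => act A S p θ) (e1 S)
  · refine ⟨X, ?_⟩
    have h3 : HasFDerivAt (fun p => act A S p θ) (fderiv ℝ (fun p => act A S p θ) (e1 S))
        (e1 S + (0 : ℝ) • X) := by
      rw [zero_smul, add_zero]
      exact hd.hasFDerivAt
    have h4 : HasDerivAt ((fun p => act A S p θ) ∘ fun t : ℝ => e1 S + t • X)
        (fderiv ℝ (fun p => act A S p θ) (e1 S) X) 0 :=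
      HasFDerivAt.comp_hasDerivAt (l := fun p => act A S p θ)
        (f := fun t : ℝ => e1 S + t • X) (0 : ℝ) h3 (hasDerivAt_line S X)
    exact (hasDerivAt_act A S X θ).unique h4
  · refine ⟨0, ?_⟩
    rw [fderiv_zero_of_not_differentiableAt hd, map_zero]
    rfl

/-- **The equations of the orbit of the inclusion `S → W`.** -/
theorem exists_eq (θ₀ : S →L[ℝ] W) : ∃ (n : ℕ) (f : Fin n → (S →L[ℝ] W) → ℝ),
    (∀ i, ContDiff ℝ 2 (f i)) ∧ (∀ i p, f i (act A S p θ₀) = 0) ∧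
      ∀ v, (∀ i, fderiv ℝ (f i) θ₀ v = 0) → ∃ ξ, rho A S ξ θ₀ = v := by
  have hdet1 : (fun p : (E →L[ℝ] E) × (S →L[ℝ] S) => LinearMap.det (p.1 : E →ₗ[ℝ] E)) ∈
      Pol ((E →L[ℝ] E) × (S →L[ℝ] S)) :=
    Pol.comp (F := (E →L[ℝ] E) × (S →L[ℝ] S)) (G := E →L[ℝ] E)
      (f := fun g => LinearMap.det (g : E →ₗ[ℝ] E))
      (ContinuousLinearMap.fst ℝ (E →L[ℝ] E) (S →L[ℝ] S)) (pol_det (G := E))
  have hdet2 : (fun p : (E →L[ℝ] E) × (S →L[ℝ] S) => LinearMap.det (p.2 : S →ₗ[ℝ] S)) ∈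
      Pol ((E →L[ℝ] E) × (S →L[ℝ] S)) :=
    Pol.comp (F := (E →L[ℝ] E) × (S →L[ℝ] S)) (G := S →L[ℝ] S)
      (f := fun g => LinearMap.det (g : S →ₗ[ℝ] S))
      (ContinuousLinearMap.snd ℝ (E →L[ℝ] E) (S →L[ℝ] S)) (pol_det (G := S))
  obtain ⟨n, f, hf, h0, hk⟩ := exists_eqs (act A S) (e1 S)
    (fun p q => ⟨(q.1 ∘L p.1, q.2 ∘L p.2), by
      ext θ s
      change A.pull p.1 (A.pull q.1 (θ (q.2 (p.2 s)))) = A.pull (q.1 ∘L p.1) (θ (q.2 (p.2 s)))
      rw [A.pull_comp]⟩)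
    (fun l v => pol_act A S l v) _ (Pol.mul hdet1 hdet2) (by
      have h1 : LinearMap.det ((ContinuousLinearMap.id ℝ E : E →L[ℝ] E) : E →ₗ[ℝ] E) = 1 :=
        LinearMap.det_id
      have h2 : LinearMap.det ((ContinuousLinearMap.id ℝ S : S →L[ℝ] S) : S →ₗ[ℝ] S) = 1 :=
        LinearMap.det_id
      change LinearMap.det ((ContinuousLinearMap.id ℝ E : E →L[ℝ] E) : E →ₗ[ℝ] E) *
        LinearMap.det ((ContinuousLinearMap.id ℝ S : S →L[ℝ] S) : S →ₗ[ℝ] S) ≠ 0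
      rw [h1, h2]
      norm_num)
    (by
      intro p hp
      have hp1 : LinearMap.det (p.1 : E →ₗ[ℝ] E) ≠ 0 := left_ne_zero_of_mul hp
      have hp2 : LinearMap.det (p.2 : S →ₗ[ℝ] S) ≠ 0 := right_ne_zero_of_mul hp
      set g : E ≃L[ℝ] E := (LinearMap.equivOfDetNeZero _ hp1).toContinuousLinearEquiv with hg
      set c : S ≃L[ℝ] S := (LinearMap.equivOfDetNeZero _ hp2).toContinuousLinearEquiv with hc
      have hg1 : ∀ x, p.1 x = g x := fun x => rfl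
      have hc1 : ∀ x, p.2 x = c x := fun x => rfl
      have hgp : p.1 = (g : E →L[ℝ] E) := by
        ext x
        exact hg1 x
      refine ⟨?_, ?_⟩
      · intro θ θ' hθ
        ext s
        have h1 : A.pull p.1 (θ (p.2 (c.symm s))) = A.pull p.1 (θ' (p.2 (c.symm s))) :=
          congrArg (fun T : S →L[ℝ] W => T (c.symm s)) hθ
        rw [hc1, c.apply_symm_apply, hgp] at h1
        have h2 := congrArg (A.pull (g.symm : E →L[ℝ] E)) h1
        rwa [A.pull_pull_symm, A.pull_pull_symm] at h2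
      · refine ⟨ContinuousLinearMap.prodMap
          ((ContinuousLinearMap.compL ℝ E E E).flip (g.symm : E →L[ℝ] E))
          ((ContinuousLinearMap.compL ℝ S S S).flip (c.symm : S →L[ℝ] S)), fun Y => ?_⟩
        ext θ s
        change A.pull (p.1 + Y.1) (θ (p.2 s + Y.2 s)) =
          A.pull p.1 (A.pull (ContinuousLinearMap.id ℝ E + Y.1 ∘L (g.symm : E →L[ℝ] E))
            (θ (p.2 s + Y.2 (c.symm (p.2 s)))))
        rw [hc1, c.symm_apply_apply, ← A.pull_comp]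
        congr 1
        congr 1
        ext x
        simp [hgp])
    θ₀
  refine ⟨n, f, fun i => (Pol.contDiff (hf i)).of_le (WithTop.coe_le_coe.2 le_top), h0, ?_⟩
  intro v hv
  obtain ⟨X, rfl⟩ := hk v hv
  exact fderiv_act A S X θ₀

theorem act_act (p q : (E →L[ℝ] E) × (S →L[ℝ] S)) (θ : S →L[ℝ] W) :
    act A S p (act A S q θ) = act A S (q.1 ∘L p.1, q.2 ∘L p.2) θ := by
  ext s
  change A.pull p.1 (A.pull q.1 (θ (q.2 (p.2 s)))) = A.pull (q.1 ∘L p.1) (θ (q.2 (p.2 s)))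
  rw [A.pull_comp]

/-- the closure of the orbit of the inclusion -/
def Orb0 : Set (S →L[ℝ] W) := closure (range fun p => act A S p S.subtypeL)

theorem act_mem_orb0 (p : (E →L[ℝ] E) × (S →L[ℝ] S)) {θ : S →L[ℝ] W} (h : θ ∈ Orb0 A S) :
    act A S p θ ∈ Orb0 A S := by
  refine map_mem_closure (act A S p).continuous h ?_
  rintro _ ⟨q, rfl⟩
  exact ⟨_, (act_act A S p q S.subtypeL).symm⟩

set_option maxHeartbeats 1000000 in
/-- **One step.** -/
theorem step : ∃ C δ₀ : ℝ, 0 ≤ C ∧ 0 < δ₀ ∧ ∀ (X : Submodule ℝ W) (D : E ≃L[ℝ] E) (δ κ : ℝ),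
    Module.finrank ℝ S = Module.finrank ℝ X →
    (∀ θ : S →L[ℝ] W, (∀ s, θ s ∈ X) → θ ∈ Orb0 A S) →
    (∀ s ∈ S, A.pull (D.symm : E →L[ℝ] E) s ∈ S) →
    0 ≤ δ → 1 ≤ κ → ‖(D : E →L[ℝ] E)‖ * ‖(D.symm : E →L[ℝ] E)‖ ≤ κ → κ * δ ≤ δ₀ →
    (∀ s ∈ S, ∃ σ ∈ X, ‖A.pull (D : E →L[ℝ] E) σ - s‖ ≤ δ * ‖s‖) →
    ∀ τ ∈ X, ∃ z ∈ S, ‖τ - z‖ ≤ C * (κ * δ) * ‖τ‖ := by
  obtain ⟨n, f, hf, h0, hk⟩ := exists_eq A S S.subtypeL
  obtain ⟨C1, η, hC1, hη, hty⟩ := Vale.Agent.P207.H376.ty_local (rho A S) f hf S.subtypeL hk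
  set b := Module.finBasis ℝ S with hb
  obtain ⟨C2, hC2, hC2b⟩ := b.exists_opNorm_le (F := W)
  set β : ℝ := ∑ i, ‖b i‖ with hβ
  have hβ0 : 0 ≤ β := Finset.sum_nonneg fun i _ => norm_nonneg _
  have hβi : ∀ i, ‖b i‖ ≤ β := fun i =>
    Finset.single_le_sum (f := fun i => ‖b i‖) (fun i _ => norm_nonneg _) (Finset.mem_univ i)
  set K : ℝ := C2 * β with hK
  have hK0 : 0 ≤ K := by positivity
  set C3 : ℝ := C1 + 2 * C1 ^ 2 with hC3
  have hC30 : 0 ≤ C3 := by positivity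
  set δ₀ : ℝ := min (min (min η (1 / 2)) (1 / (4 * C1))) 1 / (K + 1) with hδ₀
  have hδ₀0 : 0 < δ₀ := by positivity
  have hKδ : K * δ₀ ≤ min (min (min η (1 / 2)) (1 / (4 * C1))) 1 := by
    rw [hδ₀, ← mul_div_assoc, div_le_iff₀ (by positivity)]
    have : 0 ≤ min (min (min η (1 / 2)) (1 / (4 * C1))) 1 := by positivity
    nlinarith
  have hδ₀1 : δ₀ ≤ 1 := by
    rw [hδ₀, div_le_iff₀ (by positivity)]
    have : min (min (min η (1 / 2)) (1 / (4 * C1))) 1 ≤ 1 := min_le_right _ _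
    linarith
  have hKη : K * δ₀ ≤ η := hKδ.trans ((min_le_left _ _).trans ((min_le_left _ _).trans
    (min_le_left _ _)))
  have hKh : K * δ₀ ≤ 1 / 2 := hKδ.trans ((min_le_left _ _).trans ((min_le_left _ _).trans
    (min_le_right _ _)))
  have hKC : 4 * C1 * (K * δ₀) ≤ 1 := by
    have h1 : K * δ₀ ≤ 1 / (4 * C1) := hKδ.trans ((min_le_left _ _).trans (min_le_right _ _))
    calc 4 * C1 * (K * δ₀) ≤ 4 * C1 * (1 / (4 * C1)) := by gcongr
      _ = 1 := by field_simp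
  -- the zeros
  have hι : act A S (e1 S) S.subtypeL = S.subtypeL := act_e1 A S S.subtypeL
  have hz : ∀ θ ∈ Orb0 A S, ∀ i, f i θ = 0 := by
    intro θ hθ i
    have h1 : IsClosed {θ | f i θ = 0} := isClosed_eq (hf i).continuous continuous_const
    refine closure_minimal ?_ h1 hθ
    rintro _ ⟨p, rfl⟩
    exact h0 i p
  have hιm : S.subtypeL ∈ Orb0 A S := subset_closure ⟨e1 S, hι⟩
  have htan : ∀ i ξ, fderiv ℝ (f i) S.subtypeL (rho A S ξ S.subtypeL) = 0 := by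
    intro i ξ
    refine Vale.Agent.P207.H376.tangent_of_orbit ((hf i).differentiable (by norm_num))
      (c := fun t : ℝ => act A S (e1 S + t • ξ) S.subtypeL) ?_ (hasDerivAt_act A S ξ S.subtypeL)
      (fun t => h0 i _)
    change act A S (e1 S + (0 : ℝ) • ξ) S.subtypeL = S.subtypeL
    rw [zero_smul, add_zero, hι]
  refine ⟨4 * C1 * K * (1 + 2 * C3 * K ^ 2) + 2 * C3 * K ^ 2, δ₀, by positivity, hδ₀0, ?_⟩
  intro X D δ κ hdim hX hDi hδ hκ hDκ hκδ hap τ hτ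
  have hδδ : δ ≤ κ * δ := by nlinarith
  have hKd : K * δ ≤ K * (κ * δ) := by gcongr
  have hKd0 : K * (κ * δ) ≤ K * δ₀ := by gcongr
  have hq0 : 0 ≤ κ * δ := by positivity
  -- the approximate basis
  choose! σ hσX hσ using hap
  set θ' : S →L[ℝ] W := LinearMap.toContinuousLinearMap (b.constr ℝ fun i => σ (b i : W))
    with hθ'
  have hθb : ∀ i, θ' (b i) = σ (b i : W) := fun i => b.constr_basis ℝ _ i
  have hθX : ∀ s, θ' s ∈ X := by
    intro s
    have h1 : θ' s = ∑ i, b.repr s i • θ' (b i) := by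
      conv_lhs => rw [← b.sum_repr s]
      rw [map_sum]
      exact Finset.sum_congr rfl fun i _ => map_smul _ _ _
    rw [h1]
    refine Submodule.sum_mem _ fun i _ => Submodule.smul_mem _ _ ?_
    rw [hθb]
    exact hσX _ (b i).2
  set Θ : S →L[ℝ] W := A.pull (D : E →L[ℝ] E) ∘L θ' with hΘ
  have hΘo : Θ ∈ Orb0 A S := by
    have h1 := act_mem_orb0 A S ((D : E →L[ℝ] E), ContinuousLinearMap.id ℝ S) (hX θ' hθX)
    exact h1
  set w : S →L[ℝ] W := Θ - S.subtypeL with hw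
  have hwn : ‖w‖ ≤ K * δ := by
    have h1 : ‖w‖ ≤ C2 * (δ * β) := by
      refine hC2b (by positivity) fun i => ?_
      have h2 : w (b i) = A.pull (D : E →L[ℝ] E) (σ (b i : W)) - (b i : W) := by
        rw [← hθb]
        rfl
      rw [h2]
      refine (hσ _ (b i).2).trans ?_
      have h3 : ‖(b i : W)‖ ≤ β := hβi i
      gcongr
    calc ‖w‖ ≤ C2 * (δ * β) := h1
      _ = K * δ := by rw [hK]; ring
  have hwη : ‖w‖ ≤ η := hwn.trans (hKd.trans (hKd0.trans hKη))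
  have hwh : ‖w‖ ≤ 1 / 2 := hwn.trans (hKd.trans (hKd0.trans hKh))
  obtain ⟨ξ, hξ, hr⟩ := hty S.subtypeL (by rw [sub_self, norm_zero]; exact hη.le)
    (fun i => hz _ hιm i) htan w hwη (fun i => by
      have h1 : S.subtypeL + w = Θ := by rw [hw]; abel
      rw [h1]
      exact hz _ hΘo i)
  -- `θ'` is onto `X`
  have hΘlow : ∀ u : S, ‖u‖ ≤ 2 * ‖Θ u‖ := by
    intro u
    have h1 : ‖w u‖ ≤ 1 / 2 * ‖u‖ := w.le_of_opNorm_le hwh u
    have h2 : (u : W) = Θ u - w u := by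
      have : w u = Θ u - (u : W) := rfl
      rw [this]; abel
    have h3 : ‖u‖ ≤ ‖Θ u‖ + ‖w u‖ := by
      have h4 := norm_sub_le (Θ u) (w u)
      rw [← h2] at h4
      exact h4
    linarith
  obtain ⟨u, hu⟩ : ∃ u : S, θ' u = τ := by
    set T : S →ₗ[ℝ] X := LinearMap.codRestrict X (θ' : S →ₗ[ℝ] W) hθX with hT
    have hinj : Function.Injective T := by
      rw [← LinearMap.ker_eq_bot, LinearMap.ker_eq_bot']
      intro u hu
      have h1 : θ' u = 0 := congrArg Subtype.val hu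
      have h2 : Θ u = 0 := by
        change A.pull (D : E →L[ℝ] E) (θ' u) = 0
        rw [h1, map_zero]
      have h3 := hΘlow u
      rw [h2, norm_zero, mul_zero] at h3
      exact norm_le_zero_iff.1 h3
    obtain ⟨u, hu⟩ := (LinearMap.injective_iff_surjective_of_finrank_eq_finrank hdim).1 hinj
      ⟨τ, hτ⟩
    exact ⟨u, congrArg Subtype.val hu⟩
  -- the decomposition
  set Y := ξ.1 with hY
  set c := ξ.2 with hc
  have hYn : ‖Y‖ ≤ C1 * ‖w‖ := (norm_fst_le ξ).trans hξ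
  have hcn : ‖c‖ ≤ C1 * ‖w‖ := (norm_snd_le ξ).trans hξ
  set r : W := w u - rho A S ξ S.subtypeL u with hrd
  have hrn : ‖r‖ ≤ C1 * ‖w‖ ^ 2 * ‖u‖ := (w - rho A S ξ S.subtypeL).le_of_opNorm_le hr u
  set u' : W := (u : W) + (c u : W) with hu'
  have hu'S : u' ∈ S := S.add_mem u.2 (c u).2
  set r' : W := r - dp A Y (c u : W) with hr'
  have hDτ : A.pull (D : E →L[ℝ] E) τ = u' + dp A Y u' + r' := by
    have h1 : A.pull (D : E →L[ℝ] E) τ = (u : W) + w u := by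
      have h2 : w u = A.pull (D : E →L[ℝ] E) (θ' u) - (u : W) := rfl
      rw [h2, hu]; abel
    have h3 : rho A S ξ S.subtypeL u = dp A Y (u : W) + (c u : W) := rfl
    rw [h1, hr', hrd, h3, hu', dp_add_right]
    abel
  set z : W := A.pull (D.symm : E →L[ℝ] E) u' with hzd
  have hzS : z ∈ S := hDi _ hu'S
  have hzD : A.pull (D : E →L[ℝ] E) z = u' := A.pull_symm_pull D u'
  have hτz : τ = z + dp A ((D : E →L[ℝ] E) ∘L Y ∘L (D.symm : E →L[ℝ] E)) z +
      A.pull (D.symm : E →L[ℝ] E) r' := by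
    have h1 := A.pull_pull_symm D τ
    rw [hDτ, map_add, map_add] at h1
    rw [← dp_conj, hzD]
    exact h1.symm
  -- the estimates
  have hun : ‖u‖ ≤ 2 * (‖(D : E →L[ℝ] E)‖ ^ 2 * ‖τ‖) := by
    refine (hΘlow u).trans ?_
    have h1 : Θ u = A.pull (D : E →L[ℝ] E) τ := by rw [← hu]; rfl
    rw [h1]
    gcongr
    exact A.norm_pull _ _
  have hr'n : ‖r'‖ ≤ C3 * ‖w‖ ^ 2 * ‖u‖ := by
    have h1 : ‖dp A Y (c u : W)‖ ≤ 2 * (C1 * ‖w‖) * (C1 * ‖w‖ * ‖u‖) := by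
      refine (norm_dp A _ _).trans ?_
      have h2 : ‖(c u : W)‖ ≤ C1 * ‖w‖ * ‖u‖ := c.le_of_opNorm_le hcn u
      gcongr
    calc ‖r'‖ ≤ ‖r‖ + ‖dp A Y (c u : W)‖ := norm_sub_le _ _
      _ ≤ C1 * ‖w‖ ^ 2 * ‖u‖ + 2 * (C1 * ‖w‖) * (C1 * ‖w‖ * ‖u‖) := add_le_add hrn h1
      _ = C3 * ‖w‖ ^ 2 * ‖u‖ := by rw [hC3]; ring
  have hP : ‖A.pull (D.symm : E →L[ℝ] E) r'‖ ≤ 2 * C3 * K ^ 2 * (κ * δ) * ‖τ‖ := by
    have h1 : (‖(D : E →L[ℝ] E)‖ * ‖(D.symm : E →L[ℝ] E)‖ * ‖w‖) ≤ K * (κ * δ) := by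
      calc ‖(D : E →L[ℝ] E)‖ * ‖(D.symm : E →L[ℝ] E)‖ * ‖w‖ ≤ κ * (K * δ) := by gcongr
        _ = K * (κ * δ) := by ring
    have h2 : (‖(D : E →L[ℝ] E)‖ * ‖(D.symm : E →L[ℝ] E)‖ * ‖w‖) ^ 2 ≤
        (K * (κ * δ)) ^ 2 := by gcongr
    have h3 : (κ * δ) ^ 2 ≤ κ * δ := by nlinarith
    calc ‖A.pull (D.symm : E →L[ℝ] E) r'‖ ≤ ‖(D.symm : E →L[ℝ] E)‖ ^ 2 * ‖r'‖ := A.norm_pull _ _
      _ ≤ ‖(D.symm : E →L[ℝ] E)‖ ^ 2 * (C3 * ‖w‖ ^ 2 * (2 * (‖(D : E →L[ℝ] E)‖ ^ 2 * ‖τ‖))) := by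
          gcongr
          exact hr'n.trans (by gcongr)
      _ = 2 * C3 * (‖(D : E →L[ℝ] E)‖ * ‖(D.symm : E →L[ℝ] E)‖ * ‖w‖) ^ 2 * ‖τ‖ := by ring
      _ ≤ 2 * C3 * (K * (κ * δ)) ^ 2 * ‖τ‖ := by gcongr
      _ = 2 * C3 * K ^ 2 * (κ * δ) ^ 2 * ‖τ‖ := by ring
      _ ≤ 2 * C3 * K ^ 2 * (κ * δ) * ‖τ‖ := by gcongr
  have hQ : ‖dp A ((D : E →L[ℝ] E) ∘L Y ∘L (D.symm : E →L[ℝ] E)) z‖ ≤
      2 * (C1 * (K * (κ * δ))) * ‖z‖ := by
    refine (norm_dp A _ _).trans ?_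
    have h1 : ‖(D : E →L[ℝ] E) ∘L Y ∘L (D.symm : E →L[ℝ] E)‖ ≤ C1 * (K * (κ * δ)) := by
      calc ‖(D : E →L[ℝ] E) ∘L Y ∘L (D.symm : E →L[ℝ] E)‖
          ≤ ‖(D : E →L[ℝ] E)‖ * (‖Y‖ * ‖(D.symm : E →L[ℝ] E)‖) :=
            (ContinuousLinearMap.opNorm_comp_le _ _).trans (by
              gcongr
              exact ContinuousLinearMap.opNorm_comp_le _ _)
        _ = (‖(D : E →L[ℝ] E)‖ * ‖(D.symm : E →L[ℝ] E)‖) * ‖Y‖ := by ring
        _ ≤ κ * (C1 * (K * δ)) := by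
            have h2 : ‖Y‖ ≤ C1 * (K * δ) := hYn.trans (by gcongr)
            gcongr
        _ = C1 * (K * (κ * δ)) := by ring
    gcongr
  have hzn : ‖z‖ ≤ 2 * (1 + 2 * C3 * K ^ 2) * ‖τ‖ := by
    have h1 : z = τ - dp A ((D : E →L[ℝ] E) ∘L Y ∘L (D.symm : E →L[ℝ] E)) z -
        A.pull (D.symm : E →L[ℝ] E) r' := by
      have h0 : ∀ a b c : W, τ = a + b + c → a = τ - b - c := fun a b c h => by rw [h]; abel
      exact h0 _ _ _ hτz
    have h2 : ‖z‖ ≤ ‖τ‖ + ‖dp A ((D : E →L[ℝ] E) ∘L Y ∘L (D.symm : E →L[ℝ] E)) z‖ +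
        ‖A.pull (D.symm : E →L[ℝ] E) r'‖ := by
      have h3 := norm_sub_le (τ - dp A ((D : E →L[ℝ] E) ∘L Y ∘L (D.symm : E →L[ℝ] E)) z)
        (A.pull (D.symm : E →L[ℝ] E) r')
      have h4 := norm_sub_le τ (dp A ((D : E →L[ℝ] E) ∘L Y ∘L (D.symm : E →L[ℝ] E)) z)
      rw [← h1] at h3
      linarith
    have h5 : 2 * (C1 * (K * (κ * δ))) ≤ 1 / 2 := by
      have : C1 * (K * (κ * δ)) ≤ C1 * (K * δ₀) := by gcongr
      linarith
    have h6 : 2 * (C1 * (K * (κ * δ))) * ‖z‖ ≤ 1 / 2 * ‖z‖ := by gcongr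
    have h7 : 2 * C3 * K ^ 2 * (κ * δ) * ‖τ‖ ≤ 2 * C3 * K ^ 2 * 1 * ‖τ‖ := by
      have : κ * δ ≤ 1 := hκδ.trans hδ₀1
      gcongr
    linarith
  refine ⟨z, hzS, ?_⟩
  have h1 : τ - z = dp A ((D : E →L[ℝ] E) ∘L Y ∘L (D.symm : E →L[ℝ] E)) z +
      A.pull (D.symm : E →L[ℝ] E) r' := by
    have h0 : ∀ a b c : W, τ = a + b + c → τ - a = b + c := fun a b c h => by rw [h]; abel
    exact h0 _ _ _ hτz
  rw [h1]
  calc ‖dp A ((D : E →L[ℝ] E) ∘L Y ∘L (D.symm : E →L[ℝ] E)) z +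
        A.pull (D.symm : E →L[ℝ] E) r'‖
      ≤ 2 * (C1 * (K * (κ * δ))) * (2 * (1 + 2 * C3 * K ^ 2) * ‖τ‖) +
        2 * C3 * K ^ 2 * (κ * δ) * ‖τ‖ := by
        refine (norm_add_le _ _).trans (add_le_add (hQ.trans ?_) hP)
        gcongr
    _ = (4 * C1 * K * (1 + 2 * C3 * K ^ 2) + 2 * C3 * K ^ 2) * (κ * δ) * ‖τ‖ := by ring

/-- **LEMMA R.** -/
theorem lemR {X : Submodule ℝ W} (hdim : Module.finrank ℝ S = Module.finrank ℝ X)
    (hX : ∀ θ : S →L[ℝ] W, (∀ s, θ s ∈ X) → θ ∈ Orb0 A S) (D : ℕ → E ≃L[ℝ] E)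
    (hDi : ∀ n, ∀ s ∈ S, A.pull ((D n).symm : E →L[ℝ] E) s ∈ S) {δ κ : ℕ → ℝ}
    (hδ : ∀ n, 0 ≤ δ n) (hκ : ∀ n, 1 ≤ κ n)
    (hDκ : ∀ n, ‖(D n : E →L[ℝ] E)‖ * ‖((D n).symm : E →L[ℝ] E)‖ ≤ κ n)
    (hlim : Tendsto (fun n => κ n * δ n) atTop (𝓝 0))
    (hap : ∀ᶠ n in atTop, ∀ s ∈ S, ∃ σ ∈ X, ‖A.pull (D n : E →L[ℝ] E) σ - s‖ ≤ δ n * ‖s‖) :
    X = S := by
  obtain ⟨C, δ₀, hC, hδ₀, hst⟩ := step A S
  have hle : X ≤ S := by
    intro τ hτ
    have h1 : ∀ᶠ n in atTop, κ n * δ n ≤ δ₀ := hlim.eventually (ge_mem_nhds hδ₀)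
    have h2 : ∀ᶠ n in atTop, ∃ z ∈ S, ‖τ - z‖ ≤ C * (κ n * δ n) * ‖τ‖ := by
      filter_upwards [h1, hap] with n hn hapn
      exact hst X (D n) (δ n) (κ n) hdim hX (hDi n) (hδ n) (hκ n) (hDκ n) hn hapn τ hτ
    have h3 : Tendsto (fun n => C * (κ n * δ n) * ‖τ‖) atTop (𝓝 0) := by
      simpa using (hlim.const_mul C).mul_const ‖τ‖
    have hcl : IsClosed (S : Set W) := S.closed_of_finiteDimensional
    have h4 : τ ∈ closure (S : Set W) := by
      rw [Metric.mem_closure_iff]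
      intro ε hε
      obtain ⟨n, hn1, z, hz, hn2⟩ := ((h3.eventually (gt_mem_nhds hε)).and h2).exists
      exact ⟨z, hz, by rw [dist_eq_norm]; exact lt_of_le_of_lt hn2 hn1⟩
    rwa [hcl.closure_eq] at h4
  exact Submodule.eq_of_le_of_finrank_eq hle hdim.symm

/-- the hypothesis on `X`, for a limit of translates of `S` -/
theorem mem_orb0_of_lim {X : Submodule ℝ W}
    (h : ∀ ε : ℝ, 0 < ε → ∃ g : E →L[ℝ] E, ∀ τ ∈ X, ∃ s ∈ S, ‖A.pull g s - τ‖ ≤ ε * ‖τ‖)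
    (θ : S →L[ℝ] W) (hθ : ∀ s, θ s ∈ X) : θ ∈ Orb0 A S := by
  set b := Module.finBasis ℝ S with hb
  obtain ⟨C2, hC2, hC2b⟩ := b.exists_opNorm_le (F := W)
  rw [Orb0, Metric.mem_closure_iff]
  intro ε hε
  set β : ℝ := ∑ i, ‖θ (b i)‖ with hβ
  have hβ0 : 0 ≤ β := Finset.sum_nonneg fun i _ => norm_nonneg _
  have hβi : ∀ i, ‖θ (b i)‖ ≤ β := fun i =>
    Finset.single_le_sum (f := fun i => ‖θ (b i)‖) (fun i _ => norm_nonneg _) (Finset.mem_univ i)
  obtain ⟨g, hg⟩ := h (ε / (2 * (C2 * β + 1))) (by positivity)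
  choose! s hs hsn using hg
  set c : S →L[ℝ] S := LinearMap.toContinuousLinearMap
    (b.constr ℝ fun i => (⟨s (θ (b i)), hs _ (hθ _)⟩ : S)) with hc
  have hcb : ∀ i, (c (b i) : W) = s (θ (b i)) := fun i => by
    have h1 : c (b i) = ⟨s (θ (b i)), hs _ (hθ _)⟩ := b.constr_basis ℝ _ i
    rw [h1]
  refine ⟨act A S (g, c) S.subtypeL, ⟨(g, c), rfl⟩, ?_⟩
  rw [dist_eq_norm, norm_sub_rev]
  have h1 : ‖act A S (g, c) S.subtypeL - θ‖ ≤ C2 * (ε / (2 * (C2 * β + 1)) * β) := by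
    refine hC2b (by positivity) fun i => ?_
    have h2 : (act A S (g, c) S.subtypeL - θ) (b i) = A.pull g (s (θ (b i))) - θ (b i) := by
      rw [← hcb]
      rfl
    rw [h2]
    refine (hsn _ (hθ _)).trans ?_
    have := hβi i
    gcongr
  refine lt_of_le_of_lt h1 ?_
  have h3 : C2 * (ε / (2 * (C2 * β + 1)) * β) = ε * (C2 * β / (2 * (C2 * β + 1))) := by ring
  rw [h3]
  have h4 : C2 * β / (2 * (C2 * β + 1)) < 1 := by
    rw [div_lt_one (by positivity)]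
    have : 0 ≤ C2 * β := by positivity
    linarith
  calc ε * (C2 * β / (2 * (C2 * β + 1))) < ε * 1 := by gcongr
    _ = ε := mul_one ε

end Act

end Vale.Agent.P207.H147.LemR
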