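import Vale.Agent.P207.H77.Lin

/-!
# Nonstationary linearisation (bunched case), with rates which depend on the point

As `H77.LinData` (same maps `qq`, `gg`, `dd`, `lim`), but the contraction of `F n` and the growth
of the inverse of its derivative are `al n p` and `be n p`, with
`be (n + 1) p * al n p ^ 2 ≤ C2 * rho ^ n`, `rho < 1`.
-/

open Set Filter Topology Metric
open scoped ContDiff Nat

set_option linter.unusedSectionVars false

noncomputable section

namespace Vale.Agent.P207.H147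

open Vale.Agent.P207.N3.H646 Vale.Agent.P207.H77 Vale.Agent.P207.H77.LinData

universe uE

variable {E : Type uE} [NormedAddCommGroup E] [NormedSpace ℝ E]

/-! ### The limit -/

section Limit

variable {P : Type*} [TopologicalSpace P] [CompleteSpace E]

/-- the data of the nonstationary linearisation, with rates which depend on the point -/
structure LinV (r rho C' C2 : ℝ) (K C : ℕ → ℝ) (al be : ℕ → P → ℝ) (f F : ℕ → P → E → E)
    (A : ℕ → P → E ≃L[ℝ] E) : Prop where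
  r0 : 0 < r
  al0 : ∀ n p, 0 ≤ al n p
  al1 : ∀ n p, al n p ≤ 1
  rho0 : 0 ≤ rho
  rho1 : rho < 1
  C'0 : 0 ≤ C'
  C20 : 0 ≤ C2
  rate : ∀ n p, be (n + 1) p * al n p ^ 2 ≤ C2 * rho ^ n
  be0 : ∀ p, be 0 p ≤ C2
  jf : ∀ n, JC ((univ : Set P) ×ˢ ball (0 : E) r) (f n)
  jF : ∀ n, JC ((univ : Set P) ×ˢ ball (0 : E) r) (F n)
  maps : ∀ n p, MapsTo (F n p) (ball 0 r) (ball 0 r)
  succ : ∀ n p, ∀ u ∈ ball (0 : E) r, F (n + 1) p u = f n p (F n p u)
  F0 : ∀ n p, F n p 0 = 0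
  f0 : ∀ n p, f n p 0 = 0
  fK : ∀ k n p, ∀ u ∈ ball (0 : E) r, ‖iteratedFDeriv ℝ k (f n p) u‖ ≤ K k
  FC : ∀ k n p, ∀ u ∈ ball (0 : E) r, ‖iteratedFDeriv ℝ k (F n p) u‖ ≤ C k * al n p
  AF : ∀ n p, fderiv ℝ (F n p) 0 = (A n p : E →L[ℝ] E)
  Ainv : ∀ n p, ‖((A n p).symm : E →L[ℝ] E)‖ ≤ C' * be n p
  Acont : ∀ n, Continuous fun p => ((A n p).symm : E →L[ℝ] E)

variable {r rho C' C2 : ℝ} {K C : ℕ → ℝ} {al be : ℕ → P → ℝ} {f F : ℕ → P → E → E}
  {A : ℕ → P → E ≃L[ℝ] E}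

namespace LinV

variable (h : LinV r rho C' C2 K C al be f F A)
include h

theorem smf (n : ℕ) (p : P) : ContDiffOn ℝ ∞ (f n p) (ball 0 r) := fun u hu =>
  ((h.jf n).smooth (p, u) ⟨trivial, hu⟩).contDiffWithinAt

theorem smF (n : ℕ) (p : P) : ContDiffOn ℝ ∞ (F n p) (ball 0 r) := fun u hu =>
  ((h.jF n).smooth (p, u) ⟨trivial, hu⟩).contDiffWithinAt

theorem A_succ (n : ℕ) (p : P) (v : E) :
    (A (n + 1) p).symm (fderiv ℝ (f n p) 0 v) = (A n p).symm v := by
  have h0 : (0 : E) ∈ ball (0 : E) r := mem_ball_self h.r0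
  have h1 : fderiv ℝ (F (n + 1) p) 0 = (fderiv ℝ (f n p) 0).comp (fderiv ℝ (F n p) 0) := by
    have h2 : F (n + 1) p =ᶠ[𝓝 0] fun u => f n p (F n p u) := by
      filter_upwards [isOpen_ball.mem_nhds h0] with u hu using h.succ n p u hu
    rw [h2.fderiv_eq]
    have h3 : DifferentiableAt ℝ (f n p) (F n p 0) := by
      rw [h.F0]
      exact (((h.jf n).smooth (p, 0) ⟨trivial, h0⟩).differentiableAt (by simp))
    have h4 := fderiv_comp (0 : E) h3
      (((h.jF n).smooth (p, 0) ⟨trivial, h0⟩).differentiableAt (by simp))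
    rw [h.F0] at h4
    exact h4
  rw [h.AF, h.AF] at h1
  apply (A (n + 1) p).injective
  rw [ContinuousLinearEquiv.apply_symm_apply]
  have h5 := congrArg (fun L : E →L[ℝ] E => L ((A n p).symm v)) h1
  simp only [ContinuousLinearMap.comp_apply, ContinuousLinearEquiv.coe_coe,
    ContinuousLinearEquiv.apply_symm_apply] at h5
  exact h5.symm

theorem dd_eq (n : ℕ) (p : P) {u : E} (hu : u ∈ ball (0 : E) r) :
    dd f F A n p u = gg F A (n + 1) p u - gg F A n p u := by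
  unfold dd gg qq
  rw [map_sub, h.A_succ, h.succ n p u hu]

theorem sum_dd (n : ℕ) (p : P) {u : E} (hu : u ∈ ball (0 : E) r) :
    gg F A n p u = gg F A 0 p u + ∑ i ∈ Finset.range n, dd f F A i p u := by
  induction n with
  | zero => simp
  | succ n ih =>
    rw [Finset.sum_range_succ, h.dd_eq n p hu, ← add_assoc, ← ih]; abel

/-- the constant of the `k`-th derivatives -/
def cst (C' C2 : ℝ) (K C : ℕ → ℝ) (k : ℕ) : ℝ :=
  C' * C2 * ((2 ^ k * (k ! * (1 + ∑ i ∈ Finset.range (k + 2), |C i|) ^ k *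
    (∑ i ∈ Finset.range (k + 3), (|K i| + |K 1|)) * (1 + ∑ i ∈ Finset.range (k + 2), |C i|)) *
    (1 + ∑ i ∈ Finset.range (k + 2), |C i|)))

theorem iter_dd (k n : ℕ) (p : P) : ∀ u ∈ ball (0 : E) r,
    ‖iteratedFDeriv ℝ k (dd f F A n p) u‖ ≤ cst C' C2 K C k * rho ^ n := by
  intro u hu
  have h0 : (0 : E) ∈ ball (0 : E) r := mem_ball_self h.r0
  set M : ℝ := 1 + ∑ i ∈ Finset.range (k + 2), |C i| with hM
  set K' : ℝ := ∑ i ∈ Finset.range (k + 3), (|K i| + |K 1|) with hK'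
  have hM1 : 1 ≤ M := by
    rw [hM]; have : 0 ≤ ∑ i ∈ Finset.range (k + 2), |C i| := Finset.sum_nonneg fun i _ => abs_nonneg _
    linarith
  have hCM : ∀ i ≤ k + 1, C i ≤ M := by
    intro i hi
    have h1 : |C i| ≤ ∑ i ∈ Finset.range (k + 2), |C i| :=
      Finset.single_le_sum (fun i _ => abs_nonneg (C i)) (Finset.mem_range.mpr (by omega))
    linarith [le_abs_self (C i)]
  have hKK : ∀ i ≤ k + 2, |K i| + |K 1| ≤ K' := fun i hi =>
    Finset.single_le_sum (f := fun i => |K i| + |K 1|) (fun i _ => by positivity)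
      (Finset.mem_range.mpr (by omega))
  have hK0 : 0 ≤ K' := Finset.sum_nonneg fun i _ => by positivity
  have hε0 : 0 ≤ al n p := h.al0 n p
  have hε1 : al n p ≤ 1 := h.al1 n p
  have hdf : DifferentiableAt ℝ (f n p) 0 :=
    ((h.jf n).smooth (p, 0) ⟨trivial, h0⟩).differentiableAt (by simp)
  have hL : ContDiff ℝ ∞ fun u => fderiv ℝ (f n p) 0 u := (fderiv ℝ (f n p) 0).contDiff
  have hq : ContDiffOn ℝ ∞ (qq f n p) (ball 0 r) := (h.smf n p).sub hL.contDiffOn
  have hq0 : qq f n p 0 = 0 := by simp [qq, h.f0]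
  have hq1 : fderiv ℝ (qq f n p) 0 = 0 := by
    have : fderiv ℝ (qq f n p) 0 = fderiv ℝ (f n p) 0 - fderiv ℝ (fun u => fderiv ℝ (f n p) 0 u) 0 :=
      fderiv_fun_sub hdf (fderiv ℝ (f n p) 0).differentiableAt
    rw [this, ContinuousLinearMap.fderiv, sub_self]
  have hf1 : ‖fderiv ℝ (f n p) 0‖ ≤ |K 1| := by
    have := h.fK 1 n p 0 h0
    rw [← norm_iteratedFDeriv_fderiv, norm_iteratedFDeriv_zero] at this
    exact this.trans (le_abs_self _)
  have hr1 : ∀ k, ∀ y ∈ ball (0 : E) r, ‖iteratedFDeriv ℝ k (qq f n p) y‖ ≤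
      |K k| + ‖iteratedFDeriv ℝ k (fun u => fderiv ℝ (f n p) 0 u) y‖ := by
    intro k y hy
    have h1 : iteratedFDeriv ℝ k (qq f n p) y = iteratedFDeriv ℝ k (f n p) y -
        iteratedFDeriv ℝ k (fun u => fderiv ℝ (f n p) 0 u) y :=
      iteratedFDeriv_sub_apply
        (((h.jf n).smooth (p, y) ⟨trivial, hy⟩).of_le (by exact_mod_cast le_top))
        (hL.contDiffAt.of_le (by exact_mod_cast le_top))
    rw [h1]
    refine (norm_sub_le _ _).trans (add_le_add ?_ le_rfl)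
    exact (h.fK k n p y hy).trans (le_abs_self _)
  have hlin : ∀ k, 1 ≤ k → ∀ y, ‖iteratedFDeriv ℝ k (fun u => fderiv ℝ (f n p) 0 u) y‖ ≤ |K 1| := by
    intro k hk y
    obtain ⟨j, rfl⟩ : ∃ j, k = j + 1 := ⟨k - 1, by omega⟩
    rw [← norm_iteratedFDeriv_fderiv]
    have h2 : fderiv ℝ (fun u => fderiv ℝ (f n p) 0 u) = fun _ => fderiv ℝ (f n p) 0 := by
      funext z; exact ContinuousLinearMap.fderiv _
    rw [h2]
    rcases j with _ | j
    · rw [norm_iteratedFDeriv_zero]; exact hf1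
    · rw [iteratedFDeriv_const_of_ne (by omega)]
      simp
  have hK2 : ∀ i, 1 ≤ i → i ≤ k + 2 → ∀ y ∈ ball (0 : E) r,
      ‖iteratedFDeriv ℝ i (qq f n p) y‖ ≤ K' := fun i hi1 hi2 y hy =>
    ((hr1 i y hy).trans (add_le_add le_rfl (hlin i hi1 y))).trans (hKK i hi2)
  have key := iter_quad_comp h.r0 hq hq0 hq1 (h.smF n p) (h.maps n p) k hε0 hε1 hM1 hK0 hK2
    (fun x hx => by
      have := h.FC 0 n p x hx
      rw [norm_iteratedFDeriv_zero] at this
      exact this.trans (mul_le_mul_of_nonneg_right (hCM 0 (by omega)) hε0))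
    (fun i hi1 hi2 x hx => (h.FC i n p x hx).trans
      (mul_le_mul_of_nonneg_right (hCM i hi2) hε0)) u hu
  have hsq : ContDiffAt ℝ ∞ (fun x => qq f n p (F n p x)) u :=
    (hq.comp (h.smF n p) (h.maps n p)).contDiffAt (isOpen_ball.mem_nhds hu)
  have h3 := ((A (n + 1) p).symm : E →L[ℝ] E).norm_iteratedFDeriv_comp_left hsq
    (n := k) (by exact_mod_cast le_top)
  have h4 : ‖iteratedFDeriv ℝ k (dd f F A n p) u‖ ≤
      ‖((A (n + 1) p).symm : E →L[ℝ] E)‖ * ‖iteratedFDeriv ℝ k (fun x => qq f n p (F n p x)) u‖ := h3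
  refine h4.trans ((mul_le_mul (h.Ainv (n + 1) p) key (norm_nonneg _)
    ((norm_nonneg _).trans (h.Ainv (n + 1) p))).trans ?_)
  have hM0 : 0 ≤ M := by linarith
  set Z : ℝ := 2 ^ k * (k ! * M ^ k * K' * M) * M with hZ
  have hZ0 : 0 ≤ Z := by positivity
  unfold cst
  rw [← hM, ← hK']
  calc C' * be (n + 1) p * (Z * al n p ^ 2) = (C' * Z) * (be (n + 1) p * al n p ^ 2) := by ring
    _ ≤ (C' * Z) * (C2 * rho ^ n) :=
        mul_le_mul_of_nonneg_left (h.rate n p) (mul_nonneg h.C'0 hZ0)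
    _ = _ := by ring

theorem jc_gg (n : ℕ) : JC ((univ : Set P) ×ˢ ball (0 : E) r) (gg F A n) := by
  have hc : JC ((univ : Set P) ×ˢ ball (0 : E) r) (fun p (_ : E) => ((A n p).symm : E →L[ℝ] E)) :=
    JC.of_param (h.Acont n).continuousOn
  have h1 := JC.bilin (G' := E) (h.jF n) hc
  have h2 := h1.post (g := fun z : E × (E →L[ℝ] E) => z.2 z.1) isOpen_univ
    (by
      have : ContDiff ℝ ∞ fun z : E × (E →L[ℝ] E) => z.2 z.1 :=
        contDiff_snd.clm_apply contDiff_fst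
      exact this.contDiffOn) (fun _ _ => trivial)
  exact h2

theorem jc_dd (n : ℕ) : JC ((univ : Set P) ×ˢ ball (0 : E) r) (dd f F A n) := by
  refine ((h.jc_gg (n + 1)).sub (h.jc_gg n)).congr fun p hp => ?_
  filter_upwards [isOpen_ball.mem_nhds hp.2] with u hu
  exact h.dd_eq n p.1 hu

theorem rate0 : 0 ≤ rho := h.rho0

theorem summ (k : ℕ) : Summable fun i => cst C' C2 K C k * rho ^ i :=
  (summable_geometric_of_lt_one h.rho0 h.rho1).mul_left _

theorem jc_lim : JC ((univ : Set P) ×ˢ ball (0 : E) r) (lim f F A) :=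
  (h.jc_gg 0).add (JC.tsum isOpen_ball (convex_ball (0 : E) r).isPreconnected
    (fun i => h.jc_dd i) (v := fun k i => cst C' C2 K C k * rho ^ i)
    (fun k => h.summ k) (fun k i p u hu => h.iter_dd k i p u hu))

theorem lim_sub (n : ℕ) (p : P) {u : E} (hu : u ∈ ball (0 : E) r) :
    lim f F A p u - gg F A n p u = ∑' i, dd f F A (i + n) p u := by
  have h1 : Summable fun i => dd f F A i p u := by
    refine Summable.of_norm_bounded (h.summ 0) fun i => ?_
    have := h.iter_dd 0 i p u hu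
    rwa [norm_iteratedFDeriv_zero] at this
  have h2 := h1.sum_add_tsum_nat_add n
  rw [h.sum_dd n p hu, LinData.lim, ← h2]
  abel

theorem iter_lim_sub (k n : ℕ) (p : P) {u : E} (hu : u ∈ ball (0 : E) r) :
    ‖iteratedFDeriv ℝ k (lim f F A p) u - iteratedFDeriv ℝ k (gg F A n p) u‖ ≤
      cst C' C2 K C k / (1 - rho) * rho ^ n := by
  have h1 : iteratedFDeriv ℝ k (lim f F A p) u - iteratedFDeriv ℝ k (gg F A n p) u =
      iteratedFDeriv ℝ k (fun u => lim f F A p u - gg F A n p u) u :=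
    (iteratedFDeriv_sub_apply
      ((h.jc_lim.smooth (p, u) ⟨trivial, hu⟩).of_le (by exact_mod_cast le_top))
      (((h.jc_gg n).smooth (p, u) ⟨trivial, hu⟩).of_le (by exact_mod_cast le_top))).symm
  have h2 : (fun u => lim f F A p u - gg F A n p u) =ᶠ[𝓝 u] fun u => ∑' i, dd f F A (i + n) p u := by
    filter_upwards [isOpen_ball.mem_nhds hu] with w hw using h.lim_sub n p hw
  rw [h1, (h2.iteratedFDeriv ℝ k).eq_of_nhds]
  have hs : ∀ k, Summable fun i => cst C' C2 K C k * rho ^ (i + n) := fun k =>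
    (summable_nat_add_iff n).mpr (h.summ k)
  rw [iter_tsum isOpen_ball (convex_ball (0 : E) r).isPreconnected
    (fun i => fun w hw => ((h.jc_dd (i + n)).smooth (p, w) ⟨trivial, hw⟩).contDiffWithinAt)
    (v := fun k i => cst C' C2 K C k * rho ^ (i + n)) hs
    (fun k i u hu => h.iter_dd k (i + n) p u hu) k u hu]
  have h3 : ∀ i, ‖iteratedFDeriv ℝ k (dd f F A (i + n) p) u‖ ≤
      cst C' C2 K C k * rho ^ (i + n) := fun i => h.iter_dd k (i + n) p u hu
  refine (tsum_of_norm_bounded (hs k).hasSum h3).trans (le_of_eq ?_)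
  rw [tsum_mul_left]
  simp_rw [pow_add]
  rw [tsum_mul_right, tsum_geometric_of_lt_one h.rho0 h.rho1]
  field_simp

theorem lim_zero (p : P) : lim f F A p 0 = 0 := by
  have h0 : (0 : E) ∈ ball (0 : E) r := mem_ball_self h.r0
  have h1 : ∀ i, dd f F A i p 0 = 0 := fun i => by
    rw [h.dd_eq i p h0]; simp [gg, h.F0]
  simp [LinData.lim, h1, gg, h.F0]

/-- the derivative of the normalised composition at `0` is the identity -/
theorem fderiv_gg (n : ℕ) (p : P) : fderiv ℝ (gg F A n p) 0 = ContinuousLinearMap.id ℝ E := by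
  have h0 : (0 : E) ∈ ball (0 : E) r := mem_ball_self h.r0
  have h1 : DifferentiableAt ℝ (F n p) 0 :=
    ((h.jF n).smooth (p, 0) ⟨trivial, h0⟩).differentiableAt (by simp)
  have h2 : fderiv ℝ (gg F A n p) 0 = ((A n p).symm : E →L[ℝ] E).comp (fderiv ℝ (F n p) 0) :=
    ((A n p).symm : E →L[ℝ] E).hasFDerivAt.comp (0 : E) h1.hasFDerivAt |>.fderiv
  rw [h2, h.AF]
  ext v; simp

theorem fderiv_lim (p : P) : fderiv ℝ (lim f F A p) 0 = ContinuousLinearMap.id ℝ E := by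
  have h0 : (0 : E) ∈ ball (0 : E) r := mem_ball_self h.r0
  have hl := h.jc_lim
  have h1 : ∀ n, ‖fderiv ℝ (lim f F A p) 0 - ContinuousLinearMap.id ℝ E‖ ≤
      cst C' C2 K C 1 / (1 - rho) * rho ^ n := by
    intro n
    have h2 := h.iter_lim_sub 1 n p h0
    have h3 : iteratedFDeriv ℝ 1 (lim f F A p) 0 - iteratedFDeriv ℝ 1 (gg F A n p) 0 =
        iteratedFDeriv ℝ 1 (fun u => lim f F A p u - gg F A n p u) 0 :=
      (iteratedFDeriv_sub_apply
        ((h.jc_lim.smooth (p, 0) ⟨trivial, h0⟩).of_le (by exact_mod_cast le_top))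
        (((h.jc_gg n).smooth (p, 0) ⟨trivial, h0⟩).of_le (by exact_mod_cast le_top))).symm
    rw [h3, ← norm_iteratedFDeriv_fderiv, norm_iteratedFDeriv_zero] at h2
    have h4 : fderiv ℝ (fun u => lim f F A p u - gg F A n p u) 0 =
        fderiv ℝ (lim f F A p) 0 - fderiv ℝ (gg F A n p) 0 :=
      fderiv_fun_sub ((h.jc_lim.smooth (p, 0) ⟨trivial, h0⟩).differentiableAt (by simp))
        (((h.jc_gg n).smooth (p, 0) ⟨trivial, h0⟩).differentiableAt (by simp))
    rw [h4, h.fderiv_gg] at h2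
    exact h2
  have h5 : Tendsto (fun n : ℕ => cst C' C2 K C 1 / (1 - rho) * rho ^ n)
      atTop (𝓝 0) := by
    simpa using (tendsto_pow_atTop_nhds_zero_of_lt_one h.rho0 h.rho1).const_mul
      (cst C' C2 K C 1 / (1 - rho))
  have h6 : ‖fderiv ℝ (lim f F A p) 0 - ContinuousLinearMap.id ℝ E‖ ≤ 0 :=
    ge_of_tendsto' h5 h1
  exact sub_eq_zero.mp (norm_le_zero_iff.mp h6)

theorem tendsto_gg (p : P) {u : E} (hu : u ∈ ball (0 : E) r) :
    Tendsto (fun n => gg F A n p u) atTop (𝓝 (lim f F A p u)) := by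
  rw [tendsto_iff_norm_sub_tendsto_zero]
  have h5 : Tendsto (fun n : ℕ => cst C' C2 K C 0 / (1 - rho) * rho ^ n)
      atTop (𝓝 0) := by
    simpa using (tendsto_pow_atTop_nhds_zero_of_lt_one h.rho0 h.rho1).const_mul
      (cst C' C2 K C 0 / (1 - rho))
  refine squeeze_zero (fun n => norm_nonneg _) (fun n => ?_) h5
  have h2 := h.iter_lim_sub 0 n p hu
  have h3 : iteratedFDeriv ℝ 0 (lim f F A p) u - iteratedFDeriv ℝ 0 (gg F A n p) u =
      iteratedFDeriv ℝ 0 (fun u => lim f F A p u - gg F A n p u) u :=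
    (iteratedFDeriv_sub_apply
      ((h.jc_lim.smooth (p, u) ⟨trivial, hu⟩).of_le (by exact_mod_cast le_top))
      (((h.jc_gg n).smooth (p, u) ⟨trivial, hu⟩).of_le (by exact_mod_cast le_top))).symm
  rw [h3, norm_iteratedFDeriv_zero, norm_sub_rev] at h2
  exact h2

theorem lim_bound (k : ℕ) : ∃ D : ℝ, 0 ≤ D ∧ ∀ p, ∀ u ∈ ball (0 : E) r,
    ‖iteratedFDeriv ℝ k (lim f F A p) u‖ ≤ D := by
  refine ⟨max 0 (C' * C2 * |C k| + cst C' C2 K C k / (1 - rho)), le_max_left _ _,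
    fun p u hu => ?_⟩
  refine le_trans ?_ (le_max_right _ _)
  have h1 := h.iter_lim_sub k 0 p hu
  rw [pow_zero, mul_one] at h1
  have h2 : ‖iteratedFDeriv ℝ k (gg F A 0 p) u‖ ≤ C' * C2 * |C k| := by
    have hs : ContDiffAt ℝ ∞ (F 0 p) u := (h.jF 0).smooth (p, u) ⟨trivial, hu⟩
    have h3 := ((A 0 p).symm : E →L[ℝ] E).norm_iteratedFDeriv_comp_left
      hs (n := k) (by exact_mod_cast le_top)
    have h4 : ‖((A 0 p).symm : E →L[ℝ] E)‖ ≤ C' * C2 :=
      (h.Ainv 0 p).trans (mul_le_mul_of_nonneg_left (h.be0 p) h.C'0)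
    have h5 : ‖iteratedFDeriv ℝ k (F 0 p) u‖ ≤ |C k| := by
      refine (h.FC k 0 p u hu).trans ?_
      calc C k * al 0 p ≤ |C k| * al 0 p :=
            mul_le_mul_of_nonneg_right (le_abs_self _) (h.al0 0 p)
        _ ≤ |C k| := mul_le_of_le_one_right (abs_nonneg _) (h.al1 0 p)
    exact h3.trans (mul_le_mul h4 h5 (norm_nonneg _) ((norm_nonneg _).trans h4))
  calc ‖iteratedFDeriv ℝ k (lim f F A p) u‖
      ≤ ‖iteratedFDeriv ℝ k (gg F A 0 p) u‖ +
        ‖iteratedFDeriv ℝ k (lim f F A p) u - iteratedFDeriv ℝ k (gg F A 0 p) u‖ :=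
        norm_le_norm_add_norm_sub' _ _
    _ ≤ _ := add_le_add h2 h1

end LinV

end Limit

end Vale.Agent.P207.H147
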